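import Mathlib.Data.Nat.Choose.Sum
import Mathlib.Algebra.BigOperators.Fin
import Mathlib.Algebra.Order.BigOperators.Group.Finset
import Mathlib.Algebra.Module.Basic
import Mathlib.Algebra.Module.Pi
import Mathlib.Algebra.Ring.Parity
import Mathlib.Tactic

/-! P181, FewRowsInterior, row R5: the combinatorial part (which weights are sums of generators). -/

set_option autoImplicit false

namespace Vale.Agent.P181.FR.R5

/-- The generators. -/
structure Gen {m : ℕ} (a : ℕ) (P : ℕ → (Fin m → ℕ) → Prop) (om : ℕ → Fin m → ℕ) : Prop where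
  hom : ∀ (i : ℕ) (k : Fin m), om i k = if (k : ℕ) < i then 1 else 0
  mul : ∀ (k k' : ℕ) (ν ν' : Fin m → ℕ), P k ν → P k' ν' → P (k + k') (ν + ν')
  zero : P 0 0
  g0 : P 1 (a • om 1)
  gD : ∀ i p : ℕ, 1 ≤ i → i ≤ m → Even p → p ≤ a → P i (p • om i + (i * (a - p)) • om 1)
  gE : ∀ i : ℕ, 3 ≤ i → i ≤ m → i ≤ a →
    P i (om i + (i.choose 2) • om 2 + (i * (a - i)) • om 1)
  gE2 : P 3 (3 • om 2 + (3 * a - 6) • om 1)

/-- A weight up to multiples of the first fundamental weight. -/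
def Q {m : ℕ} (a : ℕ) (P : ℕ → (Fin m → ℕ) → Prop) (om : ℕ → Fin m → ℕ) (k : ℕ)
    (ν : Fin m → ℕ) : Prop :=
  ∃ r : ℕ, ∑ i, ν i + r = a * k ∧ P k (ν + r • om 1)

variable {m a : ℕ} {P : ℕ → (Fin m → ℕ) → Prop} {om : ℕ → Fin m → ℕ}

theorem sum_om (H : Gen a P om) {i : ℕ} (hi : i ≤ m) : ∑ k, om i k = i := by
  have h1 : ∑ k : Fin m, om i k = ∑ k ∈ Finset.range m, if k < i then 1 else 0 := by
    rw [← Fin.sum_univ_eq_sum_range (fun k => if k < i then 1 else 0) m]
    exact Finset.sum_congr rfl fun k _ => H.hom i k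
  rw [h1, Finset.sum_ite, Finset.sum_const_zero, add_zero, Finset.sum_const, smul_eq_mul, mul_one]
  have h2 : (Finset.range m).filter (fun k => k < i) = Finset.range i := by
    ext k
    simp only [Finset.mem_filter, Finset.mem_range]
    omega
  rw [h2, Finset.card_range]

theorem sum_smul_om (H : Gen a P om) {i : ℕ} (hi : i ≤ m) (c : ℕ) :
    ∑ k, (c • om i) k = c * i := by
  have h1 : ∑ k, (c • om i) k = c * ∑ k, om i k := by
    rw [Finset.mul_sum]
    rfl
  rw [h1, sum_om H hi]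

theorem sum_add_fun (f g : Fin m → ℕ) : ∑ k, (f + g) k = ∑ k, f k + ∑ k, g k := by
  rw [← Finset.sum_add_distrib]
  rfl

theorem Q_mul (H : Gen a P om) {k k' : ℕ} {ν ν' : Fin m → ℕ} (h : Q a P om k ν)
    (h' : Q a P om k' ν') : Q a P om (k + k') (ν + ν') := by
  obtain ⟨r, h1, h2⟩ := h
  obtain ⟨r', h1', h2'⟩ := h'
  refine ⟨r + r', ?_, ?_⟩
  · rw [sum_add_fun]
    nlinarith [h1, h1']
  · have h3 := H.mul _ _ _ _ h2 h2'
    have e : ν + r • om 1 + (ν' + r' • om 1) = ν + ν' + (r + r') • om 1 := by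
      rw [add_smul]
      abel
    rw [e] at h3
    exact h3

theorem Q_zero (H : Gen a P om) : Q a P om 0 0 := by
  refine ⟨0, ?_, ?_⟩
  · simp
  · have h := H.zero
    simpa using h

theorem Q_one (H : Gen a P om) : Q a P om 1 0 := by
  refine ⟨a, ?_, ?_⟩
  · simp
  · have h := H.g0
    simpa using h

theorem Q_mono (H : Gen a P om) {k : ℕ} {ν : Fin m → ℕ} (h : Q a P om k ν) (l : ℕ) :
    Q a P om (k + l) ν := by
  induction l with
  | zero => exact h
  | succ l ih =>
    have h1 := Q_mul H ih (Q_one H)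
    rw [add_zero] at h1
    exact h1

theorem Q_le (H : Gen a P om) {k k' : ℕ} {ν : Fin m → ℕ} (h : Q a P om k ν) (hk : k ≤ k') :
    Q a P om k' ν := by
  obtain ⟨l, rfl⟩ := Nat.exists_eq_add_of_le hk
  exact Q_mono H h l

theorem Q_D (H : Gen a P om) {i p : ℕ} (hi : 1 ≤ i) (him : i ≤ m) (hp : Even p) (hpa : p ≤ a) :
    Q a P om i (p • om i) := by
  refine ⟨i * (a - p), ?_, H.gD i p hi him hp hpa⟩
  rw [sum_smul_om H him]
  obtain ⟨c, rfl⟩ := Nat.exists_eq_add_of_le hpa
  rw [Nat.add_sub_cancel_left]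
  ring

theorem two_mul_choose (i : ℕ) (hi : 1 ≤ i) : i.choose 2 * 2 + i = i * i := by
  rw [Nat.choose_two_right, Nat.div_mul_cancel (even_iff_two_dvd.1 (Nat.even_mul_pred_self i))]
  obtain ⟨c, rfl⟩ := Nat.exists_eq_add_of_le hi
  rw [Nat.add_sub_cancel_left]
  ring

theorem Q_E (H : Gen a P om) {i : ℕ} (hi : 3 ≤ i) (him : i ≤ m) (hia : i ≤ a) :
    Q a P om i (om i + (i.choose 2) • om 2) := by
  refine ⟨i * (a - i), ?_, H.gE i hi him hia⟩
  rw [sum_add_fun, sum_om H him, sum_smul_om H (by omega)]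
  have h := two_mul_choose i (by omega)
  obtain ⟨c, rfl⟩ := Nat.exists_eq_add_of_le hia
  rw [Nat.add_sub_cancel_left]
  nlinarith [h]

theorem Q_E2 (H : Gen a P om) (hm : 2 ≤ m) (ha : 3 ≤ a) : Q a P om 3 (3 • om 2) := by
  refine ⟨3 * a - 6, ?_, H.gE2⟩
  rw [sum_smul_om H hm]
  omega

theorem Q_even (H : Gen a P om) {i e : ℕ} (hi : 1 ≤ i) (him : i ≤ m) (he : Even e) (ha : 2 ≤ a) :
    Q a P om (i * (e / (2 * (a / 2)) + 1)) (e • om i) := by
  have key : ∀ q r : ℕ, Even r → r ≤ a →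
      Q a P om (i * (q + 1)) ((q * (2 * (a / 2)) + r) • om i) := by
    intro q r hr hra
    induction q with
    | zero =>
      have h := Q_D H hi him hr hra
      simpa using h
    | succ q ih =>
      have h1 := Q_mul H ih (Q_D H hi him (even_two_mul (a / 2)) (by omega))
      have e1 : (q * (2 * (a / 2)) + r) • om i + (2 * (a / 2)) • om i =
          ((q + 1) * (2 * (a / 2)) + r) • om i := by
        rw [← add_smul]
        congr 1
        ring
      have e2 : i * (q + 1) + i = i * (q + 1 + 1) := by ring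
      rw [e1, e2] at h1
      exact h1
  have h2 : 0 < 2 * (a / 2) := by omega
  have h3 := Nat.div_add_mod e (2 * (a / 2))
  have h4 := Nat.mod_lt e h2
  have h5 : Even (e % (2 * (a / 2))) := by
    rw [Nat.even_iff] at he ⊢
    rw [Nat.mod_mod_of_dvd e (dvd_mul_right 2 (a / 2))]
    exact he
  have h6 := key (e / (2 * (a / 2))) (e % (2 * (a / 2))) h5 (by omega)
  have e3 : e / (2 * (a / 2)) * (2 * (a / 2)) + e % (2 * (a / 2)) = e := by
    rw [mul_comm]
    exact h3
  rw [e3] at h6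
  exact h6

/-- truncated sequence -/
def tr (m : ℕ) (M : ℕ → ℕ) (s : ℕ) : Fin m → ℕ := fun k => M (max s k)

theorem tr_pred (H : Gen a P om) (M : ℕ → ℕ) {s : ℕ} (hs : 1 ≤ s) (hM : M s ≤ M (s - 1)) :
    tr m M (s - 1) = tr m M s + (M (s - 1) - M s) • om s := by
  funext k
  simp only [tr, Pi.add_apply, Pi.smul_apply, smul_eq_mul, H.hom]
  by_cases hk : (k : ℕ) < s
  · rw [if_pos hk, max_eq_left (by omega : (k : ℕ) ≤ s - 1), max_eq_left (by omega : (k : ℕ) ≤ s)]
    omega
  · rw [if_neg hk, max_eq_right (by omega : s - 1 ≤ (k : ℕ)), max_eq_right (by omega : s ≤ (k : ℕ))]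
    omega

theorem sum_tr_pred (H : Gen a P om) (M : ℕ → ℕ) {s : ℕ} (hs : 1 ≤ s) (hsm : s ≤ m)
    (hM : M s ≤ M (s - 1)) :
    ∑ k, tr m M (s - 1) k = ∑ k, tr m M s k + (M (s - 1) - M s) * s := by
  rw [tr_pred H M hs hM, sum_add_fun, sum_smul_om H hsm]

theorem claim (H : Gen a P om) (M : ℕ → ℕ) (hma : m ≤ a) (hM0 : ∀ k, m ≤ k → M k = 0)
    (hM : ∀ s, 3 ≤ s → s ≤ m → M s ≤ M (s - 1)) :
    ∀ j s : ℕ, s + j = m → 2 ≤ s → ∃ t K : ℕ, t ≤ j * m ^ 2 ∧
      (2 * (a / 2)) * K ≤ ∑ k, tr m M s k + 2 * (2 * (a / 2)) * m * j ∧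
      Q a P om K (tr m M s + t • om 2) := by
  intro j
  induction j with
  | zero =>
    intro s hs hs2
    refine ⟨0, 0, by simp, by simp, ?_⟩
    have h := Q_zero H
    have e : tr m M s + 0 • om 2 = 0 := by
      funext k
      simp only [tr, Pi.add_apply, zero_smul, add_zero, Pi.zero_apply]
      exact hM0 _ (le_trans (by omega) (le_max_left s (k : ℕ)))
    rw [e]
    exact h
  | succ j ih =>
    intro s hs hs2
    obtain ⟨t, K, ht, hK, hQ⟩ := ih (s + 1) (by omega) (by omega)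
    have hMs := hM (s + 1) (by omega) (by omega)
    have e1 := tr_pred (m := m) H M (s := s + 1) (by omega) hMs
    have e2 := sum_tr_pred (m := m) H M (s := s + 1) (by omega) (by omega) hMs
    rw [Nat.add_sub_cancel] at e1 e2 hMs
    set d : ℕ := M s - M (s + 1) with hd
    set A : ℕ := 2 * (a / 2) with hA
    have hA0 : 0 < A := by omega
    have hsm : s + 1 ≤ m := by omega
    rcases Nat.even_or_odd d with hev | hod
    · refine ⟨t, K + (s + 1) * (d / A + 1), ?_, ?_, ?_⟩
      · calc t ≤ j * m ^ 2 := ht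
          _ ≤ (j + 1) * m ^ 2 := Nat.mul_le_mul_right _ (by omega)
      · have h1 : A * (d / A) ≤ d := Nat.mul_div_le d A
        rw [e2]
        calc A * (K + (s + 1) * (d / A + 1)) = A * K + (s + 1) * (A * (d / A)) + (s + 1) * A := by
              ring
          _ ≤ (∑ k, tr m M (s + 1) k + 2 * A * m * j) + (s + 1) * d + m * A := by
              gcongr
          _ ≤ ∑ k, tr m M (s + 1) k + d * (s + 1) + 2 * A * m * (j + 1) := by
              nlinarith [Nat.zero_le (A * m)]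
      · have h2 := Q_mul H hQ (Q_even H (i := s + 1) (by omega) hsm hev (by omega))
        have e3 : tr m M (s + 1) + t • om 2 + d • om (s + 1) = tr m M s + t • om 2 := by
          rw [e1]
          abel
        rw [e3] at h2
        exact h2
    · have hd1 : 1 ≤ d := hod.pos
      have hev : Even (d - 1) := Nat.Odd.sub_odd hod odd_one
      refine ⟨t + (s + 1).choose 2, K + (s + 1) * ((d - 1) / A + 1) + (s + 1), ?_, ?_, ?_⟩
      · have h1 := two_mul_choose (s + 1) (by omega)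
        have h2 : (s + 1).choose 2 ≤ m ^ 2 := by
          have h3 : (s + 1) * (s + 1) ≤ m * m := Nat.mul_le_mul hsm hsm
          nlinarith
        calc t + (s + 1).choose 2 ≤ j * m ^ 2 + m ^ 2 := Nat.add_le_add ht h2
          _ = (j + 1) * m ^ 2 := by ring
      · have h1 : A * ((d - 1) / A) ≤ d - 1 := Nat.mul_div_le (d - 1) A
        rw [e2]
        calc A * (K + (s + 1) * ((d - 1) / A + 1) + (s + 1))
              = A * K + (s + 1) * (A * ((d - 1) / A)) + (s + 1) * (2 * A) := by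
              ring
          _ ≤ (∑ k, tr m M (s + 1) k + 2 * A * m * j) + (s + 1) * d + m * (2 * A) := by
              have h1' : A * ((d - 1) / A) ≤ d := le_trans h1 (Nat.sub_le _ _)
              gcongr
          _ = ∑ k, tr m M (s + 1) k + d * (s + 1) + 2 * A * m * (j + 1) := by
              ring
      · have h2 := Q_mul H (Q_mul H hQ (Q_even H (i := s + 1) (by omega) hsm hev (by omega)))
          (Q_E H (i := s + 1) (by omega) hsm (by omega))
        have e3 : tr m M (s + 1) + t • om 2 + (d - 1) • om (s + 1) +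
            (om (s + 1) + ((s + 1).choose 2) • om 2) = tr m M s + (t + (s + 1).choose 2) • om 2 := by
          rw [e1]
          obtain ⟨c, hc⟩ := Nat.exists_eq_add_of_le hd1
          rw [hc, Nat.add_sub_cancel_left, add_smul, add_smul, one_smul]
          abel
        rw [e3] at h2
        exact h2

theorem main (H : Gen a P om) (hm3 : 3 ≤ m) (M : ℕ → ℕ) (hma : m ≤ a) (B : ℕ)
    (hM0 : ∀ k, m ≤ k → M k = 0) (hM : ∀ s, 3 ≤ s → s ≤ m → M s ≤ M (s - 1))
    (h0 : M 1 + B + 4 * m ^ 2 * a ≤ M 0) (h1 : M 2 + m ^ 3 + 3 ≤ M 1)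
    (hsum : ∑ k : Fin m, M k = a * B) : P B (fun k => M k) := by
  obtain ⟨t, K, ht, hK, hQ⟩ := claim H M hma hM0 hM (m - 2) 2 (by omega) le_rfl
  set A : ℕ := 2 * (a / 2) with hA
  have hA0 : 0 < A := by omega
  have ht3 : t ≤ m ^ 3 := by
    calc t ≤ (m - 2) * m ^ 2 := ht
      _ ≤ m * m ^ 2 := Nat.mul_le_mul_right _ (by omega)
      _ = m ^ 3 := by ring
  have hm2 : M 2 ≤ M (2 - 1) := by
    show M 2 ≤ M 1
    omega
  have hm1 : M 1 ≤ M (1 - 1) := by
    show M 1 ≤ M 0
    omega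
  have e1 := tr_pred (m := m) H M (s := 2) (by omega) hm2
  have s1 := sum_tr_pred (m := m) H M (s := 2) (by omega) (by omega) hm2
  have e0 := tr_pred (m := m) H M (s := 1) (by omega) hm1
  have s0 := sum_tr_pred (m := m) H M (s := 1) (by omega) (by omega) hm1
  have x1 : 2 - 1 = 1 := rfl
  have x0 : 1 - 1 = 0 := rfl
  rw [x1] at e1 s1
  rw [x0] at e0 s0
  have y0 : tr m M 0 = fun k : Fin m => M k := by
    funext k
    simp only [tr]
    rw [max_eq_right (Nat.zero_le _)]
  -- the second fundamental weight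
  obtain ⟨e, he⟩ : ∃ e, M 1 - M 2 = t + e := Nat.exists_eq_add_of_le (by omega)
  have he3 : 3 ≤ e := by omega
  have hQe : Q a P om (2 * (e / A + 1) + 3) (e • om 2) := by
    rcases Nat.even_or_odd e with hev | hod
    · exact Q_mono H (Q_even H (i := 2) (by omega) (by omega) hev (by omega)) 3
    · have hev : Even (e - 3) := Nat.Odd.sub_odd hod (by decide)
      have h2 := Q_mul H (Q_even H (i := 2) (by omega) (by omega) hev (by omega))
        (Q_E2 H (by omega) (by omega))
      have e3 : (e - 3) • om 2 + 3 • om 2 = e • om 2 := by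
        rw [← add_smul, Nat.sub_add_cancel he3]
      rw [e3] at h2
      refine Q_le H h2 ?_
      have h5 : (e - 3) / A ≤ e / A := Nat.div_le_div_right (Nat.sub_le _ _)
      show 2 * ((e - 3) / A + 1) + 3 ≤ _
      omega
  have hQ1 := Q_mul H hQ hQe
  have e2 : tr m M 2 + t • om 2 + e • om 2 = tr m M 1 := by
    rw [e1, he, add_smul]
    abel
  rw [e2] at hQ1
  -- the number of points
  have hKB : K + (2 * (e / A + 1) + 3) ≤ B := by
    have h2 : A * (e / A) ≤ e := Nat.mul_div_le e A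
    have h3 : A * (K + (2 * (e / A + 1) + 3)) ≤ ∑ k, tr m M 1 k + 2 * A * m * m := by
      rw [s1, he]
      calc A * (K + (2 * (e / A + 1) + 3)) = A * K + 2 * (A * (e / A)) + 5 * A := by ring
        _ ≤ (∑ k, tr m M 2 k + 2 * A * m * (m - 2)) + 2 * e + 5 * A := by gcongr
        _ ≤ ∑ k, tr m M 2 k + (t + e) * 2 + 2 * A * m * m := by
            obtain ⟨c, hc⟩ := Nat.exists_eq_add_of_le (by omega : 2 ≤ m)
            rw [hc, Nat.add_sub_cancel_left]
            have h6 : 1 ≤ c := by omega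
            nlinarith [Nat.zero_le (A * c), Nat.zero_le t, Nat.mul_le_mul_left A h6]
    have h4 : ∑ k, tr m M 1 k + (M 0 - M 1) = a * B := by
      rw [← hsum, show (∑ k : Fin m, M k) = ∑ k, tr m M 0 k by rw [y0], s0, mul_one]
    have h5 : a ≤ A + 1 := by omega
    have h6 : A ≤ a := by omega
    have h7 : A * (K + (2 * (e / A + 1) + 3)) ≤ A * B := by
      have h8 : B + 4 * m ^ 2 * a ≤ M 0 - M 1 := by omega
      have h9 : ∑ k, tr m M 1 k + (B + 4 * m ^ 2 * a) ≤ a * B := by
        rw [← h4]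
        exact Nat.add_le_add_left h8 _
      have h10 : a * B ≤ A * B + B := by nlinarith
      have h11 : 2 * A * m * m ≤ 4 * m ^ 2 * a := by
        have h12 : m ^ 2 * A ≤ m ^ 2 * a := Nat.mul_le_mul_left _ h6
        nlinarith
      omega
    exact Nat.le_of_mul_le_mul_left h7 hA0
  obtain ⟨r, hr, hP⟩ := Q_le H hQ1 hKB
  have h4 : ∑ k, tr m M 1 k + (M 0 - M 1) = a * B := by
    rw [← hsum, show (∑ k : Fin m, M k) = ∑ k, tr m M 0 k by rw [y0], s0, mul_one]
  have hr' : r = M 0 - M 1 := by omega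
  rw [hr', ← e0, y0] at hP
  exact hP

end Vale.Agent.P181.FR.R5
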