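import Vale.Agent.P181.R2.H959.FDefs
import Vale.Agent.P181.R2.H723.Comb

/-! P181, FewRowsInterior, row R5 (`pos_of`), from the rows R1 and R4 as hypotheses. -/

set_option autoImplicit false

namespace Vale.Agent.P181.FR

open Vale.Agent.P181 Vale.Agent.P181.H280 Vale.Agent.P181.H54

/-- Row R5 with the rows R1 (`hmul`, `hzero`) and R4 (`g0`, `gD`, `gE`, `gE2`) as hypotheses. -/
theorem pos_of_rows
    (hmul : ∀ {B B' a m : ℕ} {mu mu' : Fin m → ℕ}, Pos B a m mu → Pos B' a m mu' →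
      Pos (B + B') a m (mu + mu'))
    (hzero : ∀ a m : ℕ, Pos 0 a m 0)
    (g0 : ∀ {a n : ℕ}, Pos 1 a (n + 1) (a • om (n + 1) 1))
    (gD : ∀ {i p a n : ℕ}, 1 ≤ i → i ≤ n + 1 → Even p → p ≤ a →
      Pos i a (n + 1) (p • om (n + 1) i + (i * (a - p)) • om (n + 1) 1))
    (gE : ∀ {i a n : ℕ}, 3 ≤ i → i ≤ n + 1 → i ≤ a →
      Pos i a (n + 1) (om (n + 1) i + (i.choose 2) • om (n + 1) 2 + (i * (a - i)) • om (n + 1) 1))
    (gE2 : ∀ {a n : ℕ}, 1 ≤ n → 3 ≤ a →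
      Pos 3 a (n + 1) (3 • om (n + 1) 2 + (3 * a - 6) • om (n + 1) 1))
    {a B n : ℕ} (mu : Fin (n + 3) → ℕ) (hsum : ∑ i, mu i = a * B) (ha : n + 3 ≤ a)
    (h0 : mu 1 + B + 4 * (n + 3) ^ 2 * a ≤ mu 0) (h1 : mu 2 + (n + 3) ^ 3 + 3 ≤ mu 1)
    (hanti : ∀ i j : Fin (n + 3), 1 ≤ i → i ≤ j → mu j ≤ mu i) : Pos B a (n + 3) mu := by
  have H : R5.Gen a (fun k ν => Pos k a (n + 3) ν) (fun i => om (n + 3) i) :=
    { hom := fun i k => rfl
      mul := fun k k' ν ν' h h' => hmul h h'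
      zero := hzero a (n + 3)
      g0 := g0
      gD := fun i p h1 h2 h3 h4 => gD h1 h2 h3 h4
      gE := fun i h1 h2 h3 => gE h1 h2 h3
      gE2 := gE2 (by omega) (by omega) }
  set M : ℕ → ℕ := fun k => if h : k < n + 3 then mu ⟨k, h⟩ else 0 with hMdef
  have hM : ∀ k (h : k < n + 3), M k = mu ⟨k, h⟩ := fun k h => dif_pos h
  have hM0 : ∀ k, n + 3 ≤ k → M k = 0 := fun k h => dif_neg (by omega)
  have f0 : (0 : Fin (n + 3)) = ⟨0, by omega⟩ := rfl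
  have f1 : (1 : Fin (n + 3)) = ⟨1, by omega⟩ :=
    Fin.ext (Nat.mod_eq_of_lt (show 1 < n + 3 by omega))
  have f2 : (2 : Fin (n + 3)) = ⟨2, by omega⟩ :=
    Fin.ext (Nat.mod_eq_of_lt (show 2 < n + 3 by omega))
  have hmu : (fun k : Fin (n + 3) => M k) = mu := by
    funext k
    exact hM k k.2
  have key := R5.main H (by omega) M ha B hM0 ?_ ?_ ?_ ?_
  · rw [hmu] at key
    exact key
  · intro s hs hsm
    rcases Nat.lt_or_ge s (n + 3) with h | h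
    · rw [hM s h, hM (s - 1) (by omega)]
      refine hanti _ _ ?_ ?_
      · rw [f1, Fin.mk_le_mk]
        omega
      · rw [Fin.mk_le_mk]
        omega
    · rw [hM0 s h]
      exact Nat.zero_le _
  · rw [hM 1 (by omega), hM 0 (by omega), ← f0, ← f1]
    exact h0
  · rw [hM 1 (by omega), hM 2 (by omega), ← f1, ← f2]
    exact h1
  · rw [← hsum]
    exact Finset.sum_congr rfl fun k _ => hM k k.2

end Vale.Agent.P181.FR
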